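import Vale.Agent.P097.H357.L0c

/-! # P097 / ALG-L0: no term `(ψ - ψ₀) ^ β`, `0 < β < 2`, `β ≠ 1`, at an end of exponent `0`.
Owner: helper357 (linearisation), helper787 (kill `K0`). -/

set_option linter.all false

open Complex Metric Filter Topology Set

namespace Vale.Agent.P097.H357

open Vale.Agent.P097.NZ Vale.Agent.P097.Alg

/-- the one variable kill -/
def K0 : Prop := ∀ (b : ℝ) (f : ℂ → ℂ), 0 < b → b < 2 → b ≠ 1 → AnalyticAt ℂ f 0 →
  (∀ᶠ y in 𝓝 (0 : ℂ), f (-y) = -f y) →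
  ((fun y : ℂ => f y - 2 / 3 * y ^ 3) =O[𝓝 0] fun y : ℂ => y ^ 5) →
  (∀ᶠ y in 𝓝 (0 : ℂ), f y - (1 + 2 * y) ^ ((b : ℂ) + 3) * f (y / (1 + 2 * y)) =
    -(2 * y ^ 3 * ∫ v in (0 : ℝ)..2, (1 + y * v) ^ (b : ℂ) * (v - 1))) → False

/-- the homogeneous law has no solution of order `5` -/
theorem homog {b : ℝ} (hb : b < 2) {f : ℂ → ℂ} (hf : AnalyticAt ℂ f 0)
    (ho : f =O[𝓝 0] fun y : ℂ => y ^ 5)
    (hl : ∀ᶠ y in 𝓝 (0 : ℂ), f y = (1 + 2 * y) ^ ((b : ℂ) + 3) * f (y / (1 + 2 * y))) :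
    ∀ᶠ y in 𝓝 (0 : ℂ), f y = 0 := by
  obtain ⟨C, hC⟩ := ho.bound
  obtain ⟨δ, hδ, h1⟩ := Metric.eventually_nhds_iff_ball.1 (hC.and hl)
  have hmem : ∀ t : ℝ, 0 < t → t < δ → (t : ℂ) ∈ ball (0 : ℂ) δ := by
    intro t ht1 ht2
    rw [mem_ball_zero_iff, Complex.norm_real, Real.norm_of_nonneg ht1.le]
    exact ht2
  have hzero : ∀ t : ℝ, 0 < t → t < δ → f t = 0 := by
    intro t ht1 ht2
    have hstep : ∀ n : ℕ, ‖f t‖ = (1 + 2 * n * t) ^ (b + 3) * ‖f ((t / (1 + 2 * n * t) : ℝ) : ℂ)‖ := by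
      intro n
      induction n with
      | zero => simp
      | succ n ih =>
        have p1 : (0 : ℝ) < 1 + 2 * n * t := by positivity
        have p2 : (0 : ℝ) < 1 + 2 * (n + 1 : ℕ) * t := by positivity
        set u : ℝ := t / (1 + 2 * n * t) with hu
        have hu1 : 0 < u := by positivity
        have hu2 : u < δ := by
          refine lt_of_le_of_lt ?_ ht2
          rw [hu, div_le_iff₀ p1]
          nlinarith [mul_nonneg (mul_nonneg (by norm_num : (0:ℝ) ≤ 2) (Nat.cast_nonneg (α := ℝ) n))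
            ht1.le]
        have h2 := (h1 u (hmem u hu1 hu2)).2
        have h3 : 1 + 2 * u = (1 + 2 * (n + 1 : ℕ) * t) / (1 + 2 * n * t) := by
          rw [hu]
          push_cast
          field_simp
          ring
        have h4 : u / (1 + 2 * u) = t / (1 + 2 * (n + 1 : ℕ) * t) := by
          rw [h3, hu]
          field_simp
        have h5 : ‖f (u : ℂ)‖ = (1 + 2 * u) ^ (b + 3) * ‖f ((t / (1 + 2 * (n + 1 : ℕ) * t) : ℝ) : ℂ)‖ := by
          rw [h2, norm_mul]
          congr 1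
          · have h6 : (1 : ℂ) + 2 * (u : ℂ) = ((1 + 2 * u : ℝ) : ℂ) := by push_cast; ring
            rw [h6, Complex.norm_cpow_eq_rpow_re_of_pos (by positivity)]
            simp
          · rw [← h4]
            push_cast
            rfl
        rw [ih, h5, ← mul_assoc, h3, Real.div_rpow p2.le p1.le]
        congr 1
        field_simp
    have hbd : ∀ n : ℕ, ‖f t‖ ≤ |C| * t ^ 5 * (1 + 2 * n * t) ^ (b - 2) := by
      intro n
      have p1 : (0 : ℝ) < 1 + 2 * n * t := by positivity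
      have hu1 : 0 < t / (1 + 2 * n * t) := by positivity
      have hu2 : t / (1 + 2 * n * t) < δ := by
        refine lt_of_le_of_lt ?_ ht2
        rw [div_le_iff₀ p1]
        nlinarith [mul_nonneg (mul_nonneg (by norm_num : (0:ℝ) ≤ 2) (Nat.cast_nonneg (α := ℝ) n))
            ht1.le]
      have h2 := (h1 _ (hmem _ hu1 hu2)).1
      rw [hstep n]
      have h3 : ‖f ((t / (1 + 2 * n * t) : ℝ) : ℂ)‖ ≤ |C| * (t / (1 + 2 * n * t)) ^ 5 := by
        refine h2.trans ?_
        rw [norm_pow, Complex.norm_real, Real.norm_of_nonneg hu1.le]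
        gcongr
        exact le_abs_self C
      calc (1 + 2 * n * t) ^ (b + 3) * ‖f ((t / (1 + 2 * n * t) : ℝ) : ℂ)‖
          ≤ (1 + 2 * n * t) ^ (b + 3) * (|C| * (t / (1 + 2 * n * t)) ^ 5) := by gcongr
        _ = |C| * t ^ 5 * ((1 + 2 * n * t) ^ (b + 3) / (1 + 2 * n * t) ^ 5) := by
            rw [div_pow]; ring
        _ = |C| * t ^ 5 * (1 + 2 * n * t) ^ (b - 2) := by
            rw [show b - 2 = b + 3 - 5 by ring, Real.rpow_sub p1]
            norm_cast
    have hlim : Tendsto (fun n : ℕ => |C| * t ^ 5 * (1 + 2 * n * t) ^ (b - 2)) atTop (𝓝 0) := by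
      have h2 : Tendsto (fun n : ℕ => 1 + 2 * (n : ℝ) * t) atTop atTop := by
        have h3 : Tendsto (fun n : ℕ => (n : ℝ) * (2 * t)) atTop atTop :=
          tendsto_natCast_atTop_atTop.atTop_mul_const (by positivity)
        have h4 := tendsto_atTop_add_const_left atTop 1 h3
        refine h4.congr fun n => ?_
        ring
      have h5 := (tendsto_rpow_neg_atTop (y := 2 - b) (by linarith)).comp h2
      have h6 := h5.const_mul (|C| * t ^ 5)
      rw [mul_zero] at h6
      refine h6.congr fun n => ?_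
      simp only [Function.comp]
      rw [show -(2 - b) = b - 2 by ring]
    have := ge_of_tendsto' hlim hbd
    exact norm_le_zero_iff.1 this
  rw [← hf.frequently_zero_iff_eventually_zero]
  have h2 : Tendsto (fun x : ℝ => (x : ℂ)) (𝓝[>] 0) (𝓝[≠] (0 : ℂ)) := by
    refine tendsto_nhdsWithin_iff.2 ⟨?_, ?_⟩
    · have := (Complex.continuous_ofReal.tendsto 0).mono_left
        (nhdsWithin_le_nhds (s := Ioi (0 : ℝ)))
      simpa using this
    · filter_upwards [self_mem_nhdsWithin] with x hx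
      simp only [mem_Ioi] at hx
      simpa using hx.ne'
  refine h2.frequently (Eventually.frequently ?_)
  have h3 : Ioo (0 : ℝ) δ ∈ 𝓝[>] (0 : ℝ) := Ioo_mem_nhdsGT hδ
  filter_upwards [h3] with x hx
  exact hzero x hx.1 hx.2

/-- structure of the invariant family in the second variable -/
theorem H_struct {H : ℂ × ℂ → ℂ} (hH : AnalyticAt ℂ H (0, 0))
    (hodd : ∀ᶠ p in 𝓝 ((0, 0) : ℂ × ℂ), H (p.1, -p.2) = -H p)
    (h13 : ∀ᶠ ξ in 𝓝 (0 : ℂ), iteratedDeriv 1 (fun η => H (ξ, η)) 0 = 0 ∧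
      iteratedDeriv 3 (fun η => H (ξ, η)) 0 = 4) :
    ∃ W : ℂ × ℂ → ℂ, AnalyticAt ℂ W (0, 0) ∧
      ∀ᶠ p in 𝓝 ((0, 0) : ℂ × ℂ), H p = 2 / 3 * p.2 ^ 3 + p.2 ^ 5 * W p := by
  obtain ⟨C, B, r, hB, hr, hrB, hs⟩ := tc_bound hH
  have hgeo : GeoBd (fun k => tc H (k + 5)) 0 := by
    refine ⟨C * B ^ 5, B, r, hB, hr, fun z' hz' k => ?_⟩
    calc ‖tc H (k + 5) z'‖ ≤ C * B ^ (k + 5) := (hs z' hz').1 _
      _ = C * B ^ 5 * B ^ k := by rw [pow_add]; ring
  have hW := analyticAt_Sm (u := fun k => tc H (k + 5)) (z := 0)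
    ((eventually_analyticAt_tc hH).mono fun y hy k => hy (k + 5)) hgeo
  refine ⟨Sm (fun k => tc H (k + 5)), hW, ?_⟩
  -- even coefficients
  have heven : ∀ᶠ ξ in 𝓝 (0 : ℂ), ∀ k, Even k → tc H k ξ = 0 := by
    obtain ⟨s, hs1, hs2⟩ := exists_polydisc hodd
    filter_upwards [ball_mem_nhds (0 : ℂ) hs1] with ξ hξ k hk
    have h1 : (fun δ => H (ξ, -δ)) =ᶠ[𝓝 0] fun δ => -H (ξ, δ) := by
      filter_upwards [ball_mem_nhds (0 : ℂ) hs1] with δ hδ
      exact hs2 ξ hξ δ hδ
    have h2 := h1.iteratedDeriv_eq k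
    rw [iteratedDeriv_comp_neg k (fun δ => H (ξ, δ)) 0, iteratedDeriv_fun_neg, neg_zero,
      hk.neg_one_pow, one_smul] at h2
    have h3 : iteratedDeriv k (fun δ => H (ξ, δ)) 0 = 0 := by
      have h4 : 2 * iteratedDeriv k (fun δ => H (ξ, δ)) 0 = 0 := by linear_combination h2
      exact (mul_eq_zero.1 h4).resolve_left two_ne_zero
    rw [tc, h3, zero_div]
  obtain ⟨s, hs1, hs2⟩ := Metric.eventually_nhds_iff_ball.1 (heven.and h13)
  refine eventually_of_polydisc (r := min r s) (s := min r (1 / (2 * B))) (lt_min hr hs1)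
    (lt_min hr (by positivity)) fun ξ hξ η hη => ?_
  have hξ1 : ξ ∈ ball (0 : ℂ) r := ball_subset_ball (min_le_left _ _) hξ
  have hξ2 : ξ ∈ ball (0 : ℂ) s := ball_subset_ball (min_le_right _ _) hξ
  have hη1 : η ∈ ball (0 : ℂ) r := ball_subset_ball (min_le_left _ _) hη
  have h1 := (hs ξ hξ1).2 η hη1
  have h2 := h1.summable.sum_add_tsum_nat_add 5
  rw [h1.tsum_eq] at h2
  obtain ⟨e1, e2, e3⟩ := hs2 ξ hξ2
  have t0 : tc H 0 ξ = 0 := e1 0 (by decide)
  have t2 : tc H 2 ξ = 0 := e1 2 (by decide)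
  have t4 : tc H 4 ξ = 0 := e1 4 (by decide)
  have t1 : tc H 1 ξ = 0 := by rw [tc, e2, zero_div]
  have t3 : tc H 3 ξ = 2 / 3 := by rw [tc, e3]; norm_num [Nat.factorial]
  rw [← h2]
  simp only [Finset.sum_range_succ, Finset.sum_range_zero, t0, t1, t2, t3, t4, Sm]
  rw [← tsum_mul_left]
  have h3 : ∀ i : ℕ, tc H (i + 5) ξ * η ^ (i + 5) = η ^ 5 * (tc H (i + 5) ξ * η ^ i) := by
    intro i; rw [pow_add]; ring
  simp only [h3]
  ring

/-- coefficients of the product -/
theorem c1_struct {R : ℂ → ℂ} (hR : AnalyticAt ℂ R 0) {L V : ℂ × ℂ → ℂ}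
    (hV : AnalyticAt ℂ V (0, 0))
    (h : ∀ᶠ p in 𝓝 ((0, 0) : ℂ × ℂ), L p = 2 / 3 * p.2 ^ 3 * R p.1 + p.2 ^ 5 * V p) (i : ℕ) :
    ∀ᶠ y in 𝓝 (0 : ℂ),
      c1 L i y = 2 / 3 * y ^ 3 * (iteratedDeriv i R 0 / (i.factorial : ℂ)) + y ^ 5 * c1 V i y := by
  obtain ⟨r, hr, h1⟩ := exists_polydisc (h.and hV.eventually_analyticAt)
  filter_upwards [ball_mem_nhds (0 : ℂ) hr] with y hy
  have h2 : (fun ξ => L (ξ, y)) =ᶠ[𝓝 0]
      ((fun ξ => (2 / 3 * y ^ 3) * R ξ) + fun ξ => y ^ 5 * V (ξ, y)) := by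
    filter_upwards [ball_mem_nhds (0 : ℂ) hr] with ξ hξ
    exact (h1 ξ hξ y hy).1
  have hVy : AnalyticAt ℂ (fun ξ => V (ξ, y)) 0 := analyticAt_pair (h1 0 (mem_ball_self hr) y hy).2
  have h3 := h2.iteratedDeriv_eq i
  have cR : ContDiffAt ℂ i (fun ξ => (2 / 3 * y ^ 3) * R ξ) 0 :=
    (analyticAt_const.mul hR).contDiffAt
  have cV : ContDiffAt ℂ i (fun ξ => y ^ 5 * V (ξ, y)) 0 := (analyticAt_const.mul hVy).contDiffAt
  rw [iteratedDeriv_add cR cV, iteratedDeriv_const_mul_field, iteratedDeriv_const_mul_field] at h3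
  have h4 : c1 L i y = iteratedDeriv i (fun ξ => L (ξ, y)) 0 / (i.factorial : ℂ) := rfl
  have h5 : c1 V i y = iteratedDeriv i (fun ξ => V (ξ, y)) 0 / (i.factorial : ℂ) := rfl
  rw [h4, h5, h3]
  ring

/-- ALG-L0 -/
theorem pl0 (A : RootA) (lw : LawH0) (k0 : K0) : PL0 := by
  intro N R ψ₀ ε E
  have hN := E.hN
  have hNne : N ≠ 0 := by omega
  have hNC : (N : ℂ) ≠ 0 := by exact_mod_cast hNne
  have hmem0 : (0 : ℂ) ∈ ball (0 : ℂ) ε := mem_ball_self E.hε
  have hR := E.anR hmem0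
  have hR0 := E.R0 0 hmem0
  obtain ⟨H, hH, hodd, h13, law⟩ := lw N 0 R ψ₀ ε E
  obtain ⟨W, hW, hHW⟩ := H_struct hH hodd h13
  have hRp : AnalyticAt ℂ (fun p : ℂ × ℂ => R p.1) (0, 0) := hR.comp_of_eq analyticAt_fst rfl
  set L : ℂ × ℂ → ℂ := fun p => R p.1 * H p with hLdef
  set V : ℂ × ℂ → ℂ := fun p => R p.1 * W p with hVdef
  have hL : AnalyticAt ℂ L (0, 0) := hRp.mul hH
  have hV : AnalyticAt ℂ V (0, 0) := hRp.mul hW
  have hLV : ∀ᶠ p in 𝓝 ((0, 0) : ℂ × ℂ), L p = 2 / 3 * p.2 ^ 3 * R p.1 + p.2 ^ 5 * V p := by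
    filter_upwards [hHW] with p hp
    simp only [hLdef, hVdef, hp]
    ring
  have hLodd : ∀ᶠ p in 𝓝 ((0, 0) : ℂ × ℂ), L (p.1, -p.2) = -L p := by
    filter_upwards [hodd] with p hp
    simp only [hLdef, hp]
    ring
  have law' : ∀ᶠ p in 𝓝 ((0, 0) : ℂ × ℂ), rr N 0 R p ^ 3 * L (Te N 0 R p) = L p := by
    filter_upwards [law] with p hp
    simp only [Int.cast_zero, zero_div, zero_add] at hp
    have h3 : rr N 0 R p ^ (3 : ℂ) = rr N 0 R p ^ 3 := by
      have := Complex.cpow_natCast (rr N 0 R p) 3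
      simpa using this
    rw [h3] at hp
    simp only [hLdef]
    linear_combination hp
  -- the base solution
  have hbase : ∀ᶠ y in 𝓝 (0 : ℂ), L (0, y) - R 0 * (2 / 3) * y ^ 3 = 0 := by
    have hLy : AnalyticAt ℂ (fun y => L (0, y)) 0 := analyticAt_pair2 hL
    refine homog (b := 0) (by norm_num)
      (hLy.sub ((analyticAt_const).mul (analyticAt_id.pow 3))) ?_ ?_
    · have hVy : (fun y => V (0, y)) =O[𝓝 0] fun _ : ℂ => (1 : ℂ) :=
        (analyticAt_pair2 hV).continuousAt.tendsto.isBigO_one ℂ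
      have h1 : (fun y => L (0, y) - R 0 * (2 / 3) * y ^ 3) =ᶠ[𝓝 0] fun y => y ^ 5 * V (0, y) := by
        filter_upwards [ev_axis hLV] with y hy
        rw [hy]
        ring
      refine h1.trans_isBigO ?_
      simpa using (Asymptotics.isBigO_refl (fun y : ℂ => y ^ 5) (𝓝 0)).mul hVy
    · have hne : ∀ᶠ y in 𝓝 (0 : ℂ), 1 + 2 * y ≠ 0 := by
        have : ContinuousAt (fun y : ℂ => 1 + 2 * y) 0 := by fun_prop
        exact this.eventually_ne (by simp)
      filter_upwards [ev_axis law', hne] with y hy hy0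
      have g1 : rr N 0 R (0, y) = 1 + 2 * y := by
        rw [rr, re0_axis A hN hR hR0]
        ring
      have g2 : Te N 0 R (0, y) = (0, y / (1 + 2 * y)) := by
        rw [Te_eq, re0_axis A hN hR hR0]
        simp only [zero_mul]
        rw [show y * (2 - 1) = y by ring, mul_comm y 2]
      rw [g1, g2] at hy
      have g3 : (1 + 2 * y) ^ ((((0 : ℝ) : ℂ)) + 3) = (1 + 2 * y) ^ 3 := by
        have := Complex.cpow_natCast (1 + 2 * y) 3
        simpa using this
      rw [g3]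
      have g4 : (1 + 2 * y) ^ 3 * (y / (1 + 2 * y)) ^ 3 = y ^ 3 := by
        rw [← mul_pow]
        congr 1
        field_simp
      linear_combination -hy + R 0 * (2 / 3) * g4
  have h00 : ∀ᶠ y in 𝓝 (0 : ℂ), L (0, y) = R 0 * (2 / 3) * y ^ 3 := by
    filter_upwards [hbase] with y hy
    linear_combination hy
  -- the induction
  set ω : ℂ := Complex.exp (2 * Real.pi * I / N) with hωdef
  have hprim : IsPrimitiveRoot ω N := Complex.isPrimitiveRoot_exp N hNne
  have hω : ω ^ N = 1 := hprim.pow_eq_one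
  have hω1 : ‖ω‖ = 1 := Complex.norm_eq_one_of_pow_eq_one hω hNne
  have key : ∀ m : ℕ, m < 2 * N → ¬ N ∣ m →
      (∀ᶠ y in 𝓝 (0 : ℂ), c1 L m y = 0) ∧ iteratedDeriv m R 0 = 0 := by
    intro m
    induction m using Nat.strong_induction_on with
    | _ m ih =>
      intro hm hdvd
      have hωm : ω ^ m - 1 ≠ 0 := by
        rw [sub_ne_zero]
        intro h
        exact hdvd ((hprim.pow_eq_one_iff_dvd m).1 h)
      have hωi : ∀ i : ℕ, N ∣ i → ω ^ i = 1 := fun i hi => (hprim.pow_eq_one_iff_dvd i).2 hi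
      obtain ⟨Q, hQ, hLQ, hQ0⟩ := sheet hL hω1 m (by
        intro i hi
        by_cases hd : N ∣ i
        · refine Filter.Eventually.of_forall fun y => ?_
          rw [hωi i hd]
          ring
        · filter_upwards [(ih i hi (by omega) hd).1] with y hy
          rw [hy, mul_zero])
      obtain ⟨QR, hQR, hRQ, hQR0⟩ := sheet hRp hω1 m (by
        intro i hi
        by_cases hd : N ∣ i
        · refine Filter.Eventually.of_forall fun y => ?_
          rw [hωi i hd]
          ring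
        · refine Filter.Eventually.of_forall fun y => ?_
          have h1 : c1 (fun p : ℂ × ℂ => R p.1) i y = iteratedDeriv i R 0 / (i.factorial : ℂ) := rfl
          rw [h1, (ih i hi (by omega) hd).2, zero_div, mul_zero])
      have hS : AnalyticAt ℂ (fun ξ => QR (ξ, 0)) 0 := analyticAt_pair hQR
      have hRS : ∀ᶠ ξ in 𝓝 (0 : ℂ), R (ω * ξ) - R ξ = ξ ^ m * QR (ξ, 0) := by
        filter_upwards [eventually_axis hRQ] with ξ hξ
        exact hξ
      have hlin := lin (S := fun ξ => QR (ξ, 0)) A hN hR hR0 hL law' h00 hω hω1 hQ hLQ hS hRS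
      set rm : ℂ := iteratedDeriv m R 0 / (m.factorial : ℂ) with hrm
      have hS0 : QR (0, 0) = (ω ^ m - 1) * rm := hQR0 0
      set b : ℝ := (m : ℝ) / N with hb
      have hbC : (b : ℂ) = (m : ℂ) / N := by rw [hb]; push_cast; rfl
      have hb2 : b < 2 := by
        rw [hb, div_lt_iff₀ (by exact_mod_cast Nat.pos_of_ne_zero hNne)]
        exact_mod_cast hm
      have hm0 : 0 < m := by
        rcases Nat.eq_zero_or_pos m with h | h
        · exact absurd (h ▸ dvd_zero N) hdvd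
        · exact h
      have hb0 : 0 < b := by
        rw [hb]
        have : (0 : ℝ) < N := by exact_mod_cast Nat.pos_of_ne_zero hNne
        have : (0 : ℝ) < m := by exact_mod_cast hm0
        positivity
      have hb1 : b ≠ 1 := by
        intro h
        rw [hb, div_eq_one_iff_eq (by exact_mod_cast hNne)] at h
        have : m = N := by exact_mod_cast h
        exact hdvd (this ▸ dvd_refl _)
      have hlam := c1_struct hR hV hLV m
      have hlamodd : ∀ᶠ y in 𝓝 (0 : ℂ), c1 L m (-y) = -c1 L m y := by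
        obtain ⟨s, hs1, hs2⟩ := exists_polydisc hLodd
        filter_upwards [ball_mem_nhds (0 : ℂ) hs1] with y hy
        have h1 : (fun ξ => L (ξ, -y)) =ᶠ[𝓝 0] fun ξ => -L (ξ, y) := by
          filter_upwards [ball_mem_nhds (0 : ℂ) hs1] with ξ hξ
          exact hs2 ξ hξ y hy
        have h2 := h1.iteratedDeriv_eq m
        rw [iteratedDeriv_fun_neg] at h2
        have h4 : c1 L m y = iteratedDeriv m (fun ξ => L (ξ, y)) 0 / (m.factorial : ℂ) := rfl
        have h5 : c1 L m (-y) = iteratedDeriv m (fun ξ => L (ξ, -y)) 0 / (m.factorial : ℂ) := rfl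
        rw [h4, h5, h2]
        ring
      -- the scalar law
      have hscal : ∀ᶠ y in 𝓝 (0 : ℂ),
          c1 L m y - (1 + 2 * y) ^ ((b : ℂ) + 3) * c1 L m (y / (1 + 2 * y)) =
          -(2 * y ^ 3 * rm * ∫ v in (0 : ℝ)..2, (1 + y * v) ^ (b : ℂ) * (v - 1)) := by
        have hne : ∀ᶠ y in 𝓝 (0 : ℂ), 1 + 2 * y ≠ 0 := by
          have : ContinuousAt (fun y : ℂ => 1 + 2 * y) 0 := by fun_prop
          exact this.eventually_ne (by simp)
        filter_upwards [hlin, hne] with y hy hy0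
        rw [hQ0, hQ0, hS0] at hy
        have g1 : (1 + 2 * y) ^ ((b : ℂ) + 3) =
            (1 + 2 * y) ^ 3 * ((1 + 2 * y) ^ (1 / (N : ℂ))) ^ m := by
          rw [Complex.cpow_add _ _ hy0, ← Complex.cpow_nat_mul]
          have g2 : (1 + 2 * y) ^ (3 : ℂ) = (1 + 2 * y) ^ 3 := by
            have := Complex.cpow_natCast (1 + 2 * y) 3
            simpa using this
          rw [g2, mul_comm, hbC]
          congr 2
          ring
        rw [g1, hbC]
        refine mul_left_cancel₀ hωm ?_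
        linear_combination hy
      have hVm : (fun y => c1 V m y) =O[𝓝 0] fun _ : ℂ => (1 : ℂ) :=
        (c1_an hV m).continuousAt.tendsto.isBigO_one ℂ
      have hO5 : (fun y : ℂ => y ^ 5 * c1 V m y) =O[𝓝 0] fun y : ℂ => y ^ 5 := by
        simpa using (Asymptotics.isBigO_refl (fun y : ℂ => y ^ 5) (𝓝 0)).mul hVm
      by_cases hr : rm = 0
      · have h1 : iteratedDeriv m R 0 = 0 := by
          rw [hrm, div_eq_zero_iff] at hr
          exact hr.resolve_right (by exact_mod_cast m.factorial_ne_zero)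
        refine ⟨?_, h1⟩
        refine homog hb2 (c1_an hL m) ?_ ?_
        · refine Filter.EventuallyEq.trans_isBigO ?_ hO5
          filter_upwards [hlam] with y hy
          rw [hy]
          rw [← hrm, hr]
          ring
        · filter_upwards [hscal] with y hy
          rw [hr] at hy
          linear_combination hy
      · exfalso
        refine k0 b (fun y => c1 L m y / rm) hb0 hb2 hb1
          ((c1_an hL m).div analyticAt_const hr) ?_ ?_ ?_
        · filter_upwards [hlamodd] with y hy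
          simp only [hy, neg_div]
        · have h1 : (fun y : ℂ => c1 L m y / rm - 2 / 3 * y ^ 3) =ᶠ[𝓝 0]
              fun y => rm⁻¹ * (y ^ 5 * c1 V m y) := by
            filter_upwards [hlam] with y hy
            rw [hy, ← hrm]
            field_simp
            ring
          exact h1.trans_isBigO (hO5.const_mul_left _)
        · filter_upwards [hscal] with y hy
          field_simp
          linear_combination hy
  intro j hj1 hj2 hj3
  have hd : ¬ N ∣ j := by
    rintro ⟨c, hc⟩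
    have : c = 0 ∨ c = 1 ∨ 2 ≤ c := by omega
    rcases this with h | h | h
    · rw [h, mul_zero] at hc; omega
    · rw [h, mul_one] at hc; exact hj3 hc
    · have : N * 2 ≤ N * c := Nat.mul_le_mul_left N h
      omega
  exact (key j hj2 hd).2

end Vale.Agent.P097.H357
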