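import Vale.Agent.P097.H402.Alg.Defs
import Vale.Agent.P097.H65.NZA

/-! # P097 / ALG-L0, part 1: tools for the linearisation of the law at an end. Owner: helper357. -/

set_option linter.all false

open Complex Metric Filter Topology Set

namespace Vale.Agent.P097.H357

open Vale.Agent.P097.NZ Vale.Agent.P097.Alg

/-! ## parameter integrals and divided differences -/

theorem analyticAt_unitInt {E : Type*} [NormedAddCommGroup E] [NormedSpace ℂ E]
    [FiniteDimensional ℂ E] {G : E × ℂ → ℂ} {x₀ : E}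
    (hG : ∀ s ∈ closedBall (0 : ℂ) 1, AnalyticAt ℂ G (x₀, s)) :
    AnalyticAt ℂ (fun x => ∫ s in (0 : ℝ)..1, G (x, (s : ℂ))) x₀ := by
  have hO : IsOpen {q | AnalyticAt ℂ G q} := isOpen_analyticAt ℂ G
  obtain ⟨U, V, hU, hV, h1, h2, h3⟩ := generalized_tube_lemma (s := {x₀}) isCompact_singleton
    (isCompact_closedBall (0 : ℂ) 1) hO (by
      rintro ⟨x, s⟩ ⟨hx, hs⟩
      simp only [mem_singleton_iff] at hx
      subst hx
      exact hG s hs)
  have h4 := H65.differentiableOn_unitIntegral (G := G) hU hV (fun s hs => h2 (by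
    rw [mem_closedBall_zero_iff, Complex.norm_real, Real.norm_of_nonneg hs.1]
    exact hs.2)) (fun q hq => (h3 hq).differentiableAt.differentiableWithinAt)
  exact Hol.analyticAt_of_differentiableOn hU h4 (h1 rfl)

/-- divided difference in the last variable -/
theorem quot_x {E : Type*} [NormedAddCommGroup E] [NormedSpace ℂ E] [FiniteDimensional ℂ E]
    {G : E × ℂ → ℂ} {a : E} {c : ℂ} (hG : AnalyticAt ℂ G (a, c)) :
    ∃ A : E × (ℂ × ℂ) → ℂ, AnalyticAt ℂ A (a, (c, c)) ∧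
      (∀ᶠ q in 𝓝 ((a, (c, c)) : E × (ℂ × ℂ)),
        G (q.1, q.2.2) - G (q.1, q.2.1) = (q.2.2 - q.2.1) * A q) ∧
      ∀ᶠ p in 𝓝 a, A (p, (c, c)) = deriv (fun x => G (p, x)) c := by
  set D : E × ℂ → ℂ := fun q => fderiv ℂ G q (0, 1) with hD
  have hDan : ∀ {q}, AnalyticAt ℂ G q → AnalyticAt ℂ D q := fun {q} h =>
    ((ContinuousLinearMap.apply ℂ ℂ ((0 : E), (1 : ℂ))).analyticAt _).comp h.fderiv
  set L : (E × (ℂ × ℂ)) × ℂ → E × ℂ := fun z => (z.1.1, z.1.2.1 + z.2 * (z.1.2.2 - z.1.2.1)) with hL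
  have hLan : ∀ z, AnalyticAt ℂ L z := by
    intro z
    have : Differentiable ℂ L := by
      simp only [hL]
      fun_prop
    have h2 : AnalyticOnNhd ℂ L univ := by
      intro z _
      exact Hol.analyticAt_of_differentiableOn isOpen_univ this.differentiableOn (mem_univ z)
    exact h2 z (mem_univ z)
  have hL0 : ∀ s, L ((a, (c, c)), s) = (a, c) := by
    intro s
    simp [hL]
  refine ⟨fun q => ∫ s in (0 : ℝ)..1, D (L (q, (s : ℂ))), ?_, ?_, ?_⟩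
  · refine analyticAt_unitInt (G := fun z => D (L z)) fun s _ => ?_
    exact (hDan hG).comp_of_eq (hLan _) (hL0 s)
  · -- a ball on which everything is analytic
    have h1 : ∀ᶠ q in 𝓝 ((a, c) : E × ℂ), AnalyticAt ℂ G q := hG.eventually_analyticAt
    obtain ⟨r, hr, h2⟩ := Metric.eventually_nhds_iff_ball.1 h1
    have h3 : ∀ᶠ q in 𝓝 ((a, (c, c)) : E × (ℂ × ℂ)), q.1 ∈ ball a r ∧ q.2.1 ∈ ball c r ∧
        q.2.2 ∈ ball c r := by
      have h4 : ball a r ×ˢ (ball c r ×ˢ ball c r) ∈ 𝓝 ((a, (c, c)) : E × (ℂ × ℂ)) :=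
        prod_mem_nhds (ball_mem_nhds _ hr) (prod_mem_nhds (ball_mem_nhds _ hr) (ball_mem_nhds _ hr))
      filter_upwards [h4] with q hq using ⟨hq.1, hq.2.1, hq.2.2⟩
    filter_upwards [h3] with q ⟨hq1, hq2, hq3⟩
    have hseg : ∀ s ∈ Icc (0 : ℝ) 1, AnalyticAt ℂ G (L (q, (s : ℂ))) := by
      intro s hs
      apply h2
      rw [← ball_prod_same]
      refine ⟨hq1, ?_⟩
      have := (convex_ball c r).add_smul_sub_mem hq2 hq3 hs
      simpa [hL, smul_eq_mul] using this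
    have hder : ∀ s ∈ uIcc (0 : ℝ) 1, HasDerivAt (fun s : ℝ => G (L (q, (s : ℂ))))
        ((q.2.2 - q.2.1) * D (L (q, (s : ℂ)))) s := by
      intro s hs
      rw [uIcc_of_le zero_le_one] at hs
      have g1 := (hseg s hs).differentiableAt.hasFDerivAt
      have g2 : HasDerivAt (fun s : ℂ => L (q, s)) (0, q.2.2 - q.2.1) (s : ℂ) := by
        have g3 : HasDerivAt (fun s : ℂ => q.2.1 + s * (q.2.2 - q.2.1)) (q.2.2 - q.2.1) (s : ℂ) := by
          simpa using ((hasDerivAt_id (s : ℂ)).mul_const (q.2.2 - q.2.1)).const_add q.2.1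
        exact (hasDerivAt_const (s : ℂ) q.1).prodMk g3
      have g4 : HasDerivAt (fun s : ℂ => G (L (q, s)))
          ((fderiv ℂ G (L (q, (s : ℂ)))) (0, q.2.2 - q.2.1)) (s : ℂ) :=
        g1.comp_hasDerivAt (s : ℂ) g2
      have g5 : ((fderiv ℂ G (L (q, (s : ℂ)))) (0, q.2.2 - q.2.1)) =
          (q.2.2 - q.2.1) * D (L (q, (s : ℂ))) := by
        have : ((0 : E), q.2.2 - q.2.1) = (q.2.2 - q.2.1) • ((0 : E), (1 : ℂ)) := by
          simp
        rw [this, map_smul, smul_eq_mul]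
      rw [g5] at g4
      exact g4.comp_ofReal
    have hcont : ContinuousOn (fun s : ℝ => (q.2.2 - q.2.1) * D (L (q, (s : ℂ)))) (uIcc 0 1) := by
      intro s hs
      rw [uIcc_of_le zero_le_one] at hs
      have g1 : ContinuousAt (fun s : ℝ => D (L (q, (s : ℂ)))) s := by
        have g2 := (hDan (hseg s hs)).continuousAt
        have g3 : ContinuousAt (fun s : ℝ => L (q, (s : ℂ))) s := by
          have : Continuous fun s : ℝ => L (q, (s : ℂ)) := by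
            simp only [hL]
            fun_prop
          exact this.continuousAt
        exact ContinuousAt.comp (f := fun s : ℝ => L (q, (s : ℂ))) g2 g3
      exact (continuousAt_const.mul g1).continuousWithinAt
    have := intervalIntegral.integral_eq_sub_of_hasDerivAt hder hcont.intervalIntegrable
    rw [intervalIntegral.integral_const_mul] at this
    rw [this]
    simp [hL]
  · have h1 : ∀ᶠ p in 𝓝 a, DifferentiableAt ℂ G (p, c) := by
      have hc : Tendsto (fun p : E => ((p, c) : E × ℂ)) (𝓝 a) (𝓝 (a, c)) := by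
        have : Continuous (fun p : E => ((p, c) : E × ℂ)) := by fun_prop
        exact this.tendsto a
      filter_upwards [hc.eventually hG.eventually_analyticAt] with p hp
      exact hp.differentiableAt
    filter_upwards [h1] with p hp
    have h2 : ∀ s : ℂ, L ((p, (c, c)), s) = (p, c) := by
      intro s; simp [hL]
    simp only [h2]
    rw [intervalIntegral.integral_const]
    have h3 : HasDerivAt (fun x : ℂ => ((p, x) : E × ℂ)) (0, 1) c :=
      (hasDerivAt_const c p).prodMk (hasDerivAt_id c)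
    have h4 := (hp.hasFDerivAt.comp_hasDerivAt c h3).deriv
    simp only [sub_zero, one_smul, hD]
    exact h4.symm

/-! ## series in the first variable -/

/-- Taylor coefficients in the first variable -/
noncomputable def c1 (f : ℂ × ℂ → ℂ) (i : ℕ) (y : ℂ) : ℂ := tc (fun p => f p.swap) i y

theorem swap_an {f : ℂ × ℂ → ℂ} {a b : ℂ} (hf : AnalyticAt ℂ f (a, b)) :
    AnalyticAt ℂ (fun p : ℂ × ℂ => f p.swap) (b, a) := by
  have h : AnalyticAt ℂ (fun p : ℂ × ℂ => p.swap) (b, a) :=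
    analyticAt_snd.prod analyticAt_fst
  exact hf.comp_of_eq h rfl

theorem swap_ev {P : ℂ × ℂ → Prop} {a b : ℂ} (h : ∀ᶠ p in 𝓝 ((a, b) : ℂ × ℂ), P p) :
    ∀ᶠ p in 𝓝 ((b, a) : ℂ × ℂ), P p.swap :=
  (continuous_swap.tendsto ((b, a) : ℂ × ℂ)).eventually h

theorem shift_series {u : ℕ → ℂ → ℂ} (hu : ∀ᶠ y in 𝓝 (0 : ℂ), ∀ k : ℕ, AnalyticAt ℂ (u k) y)
    (hb : GeoBd u 0) (m : ℕ) (h0 : ∀ i < m, ∀ᶠ y in 𝓝 (0 : ℂ), u i y = 0) :
    ∃ Q : ℂ × ℂ → ℂ, AnalyticAt ℂ Q (0, 0) ∧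
      (∀ᶠ p in 𝓝 ((0, 0) : ℂ × ℂ), Sm u p.swap = p.1 ^ m * Q p) ∧ ∀ y, Q (0, y) = u m y := by
  obtain ⟨C, B, r, hB, hr, hbd⟩ := hb
  have hgeo : GeoBd (fun k => u (k + m)) 0 := by
    refine ⟨C * B ^ m, B, r, hB, hr, fun z' hz' k => ?_⟩
    calc ‖u (k + m) z'‖ ≤ C * B ^ (k + m) := hbd z' hz' _
      _ = C * B ^ m * B ^ k := by rw [pow_add]; ring
  have hQ := analyticAt_Sm (u := fun k => u (k + m)) (z := 0)
    (hu.mono fun y hy k => hy (k + m)) hgeo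
  refine ⟨fun p => Sm (fun k => u (k + m)) p.swap, swap_an hQ, ?_, ?_⟩
  · have h1 : ∀ᶠ y in 𝓝 (0 : ℂ), ∀ i < m, u i y = 0 := by
      have : ∀ᶠ y in 𝓝 (0 : ℂ), ∀ i ∈ Finset.range m, u i y = 0 :=
        (Filter.eventually_all_finset _).2 fun i hi => h0 i (Finset.mem_range.1 hi)
      filter_upwards [this] with y hy i hi
      exact hy i (Finset.mem_range.2 hi)
    obtain ⟨s, hs, h2⟩ := Metric.eventually_nhds_iff_ball.1 h1
    refine eventually_of_polydisc (r := 1 / (2 * B)) (s := min r s) (by positivity)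
      (lt_min hr hs) fun x hx y hy => ?_
    have hy1 : y ∈ ball (0 : ℂ) r := ball_subset_ball (min_le_left _ _) hy
    have hy2 : y ∈ ball (0 : ℂ) s := ball_subset_ball (min_le_right _ _) hy
    have h3 := (hasSum_Sm (u := fun k => u k y) hB (hbd y hy1)
      (by simpa [mem_ball_zero_iff] using hx)).1
    have h4 := h3.sum_add_tsum_nat_add m
    simp only [Sm, Prod.swap, Prod.fst, Prod.snd]
    rw [← h4, Finset.sum_eq_zero (fun i hi => by
      rw [h2 y hy2 i (Finset.mem_range.1 hi), zero_mul]), zero_add, ← tsum_mul_left]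
    congr 1
    funext k
    rw [pow_add]
    ring
  · intro y
    simp only [Sm, Prod.swap]
    rw [tsum_eq_single 0]
    · simp
    · intro k hk
      simp [hk]

theorem c1_data {f : ℂ × ℂ → ℂ} (hf : AnalyticAt ℂ f (0, 0)) :
    (∀ᶠ y in 𝓝 (0 : ℂ), ∀ k : ℕ, AnalyticAt ℂ (c1 f k) y) ∧ GeoBd (c1 f) 0 ∧
      ∀ᶠ p in 𝓝 ((0, 0) : ℂ × ℂ), Sm (c1 f) p.swap = f p := by
  have h := swap_an hf
  refine ⟨eventually_analyticAt_tc h, geoBd_tc h, ?_⟩
  have h' : c1 f = tc (fun p => f p.swap) := rfl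
  rw [h']
  filter_upwards [swap_ev (Sm_tc h)] with p hp
  simpa using hp

theorem c1_an {f : ℂ × ℂ → ℂ} (hf : AnalyticAt ℂ f (0, 0)) (k : ℕ) : AnalyticAt ℂ (c1 f k) 0 :=
  ((c1_data hf).1.self_of_nhds) k

/-- division by a power of the first variable -/
theorem div1 {f : ℂ × ℂ → ℂ} (hf : AnalyticAt ℂ f (0, 0)) (m : ℕ)
    (h0 : ∀ i < m, ∀ᶠ y in 𝓝 (0 : ℂ), c1 f i y = 0) :
    ∃ Q : ℂ × ℂ → ℂ, AnalyticAt ℂ Q (0, 0) ∧
      (∀ᶠ p in 𝓝 ((0, 0) : ℂ × ℂ), f p = p.1 ^ m * Q p) ∧ ∀ y, Q (0, y) = c1 f m y := by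
  obtain ⟨h1, h2, h3⟩ := c1_data hf
  obtain ⟨Q, hQ, hQ1, hQ2⟩ := shift_series h1 h2 m h0
  refine ⟨Q, hQ, ?_, hQ2⟩
  filter_upwards [hQ1, h3] with p g1 g2
  rw [← g2, g1]

/-- difference of two sheets -/
theorem sheet {f : ℂ × ℂ → ℂ} (hf : AnalyticAt ℂ f (0, 0)) {ω : ℂ} (hω : ‖ω‖ = 1) (m : ℕ)
    (h0 : ∀ i < m, ∀ᶠ y in 𝓝 (0 : ℂ), (ω ^ i - 1) * c1 f i y = 0) :
    ∃ Q : ℂ × ℂ → ℂ, AnalyticAt ℂ Q (0, 0) ∧
      (∀ᶠ p in 𝓝 ((0, 0) : ℂ × ℂ), f (ω * p.1, p.2) - f p = p.1 ^ m * Q p) ∧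
      ∀ y, Q (0, y) = (ω ^ m - 1) * c1 f m y := by
  obtain ⟨h1, h2, h3⟩ := c1_data hf
  have h2' := h2
  obtain ⟨C, B, r, hB, hr, hbd⟩ := h2
  have hn : ∀ i : ℕ, ‖ω ^ i - 1‖ ≤ 2 := by
    intro i
    calc ‖ω ^ i - 1‖ ≤ ‖ω ^ i‖ + ‖(1 : ℂ)‖ := norm_sub_le _ _
      _ = 2 := by rw [norm_pow, hω, one_pow, norm_one]; norm_num
  have hC : 0 ≤ C := by
    have := (norm_nonneg _).trans (hbd 0 (mem_ball_self hr) 0)
    simpa using this
  have hgeo : GeoBd (fun k y => (ω ^ k - 1) * c1 f k y) 0 := by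
    refine ⟨2 * C, B, r, hB, hr, fun z' hz' k => ?_⟩
    rw [norm_mul]
    calc ‖ω ^ k - 1‖ * ‖c1 f k z'‖ ≤ 2 * (C * B ^ k) :=
          mul_le_mul (hn k) (hbd z' hz' k) (norm_nonneg _) (by norm_num)
      _ = 2 * C * B ^ k := by ring
  obtain ⟨Q, hQ, hQ1, hQ2⟩ := shift_series (u := fun k y => (ω ^ k - 1) * c1 f k y)
    (h1.mono fun y hy k => analyticAt_const.mul (hy k)) hgeo m h0
  refine ⟨Q, hQ, ?_, hQ2⟩
  have hmap : Tendsto (fun p : ℂ × ℂ => (ω * p.1, p.2)) (𝓝 (0, 0)) (𝓝 (0, 0)) := by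
    have : Continuous (fun p : ℂ × ℂ => (ω * p.1, p.2)) := by fun_prop
    have h := this.tendsto ((0, 0) : ℂ × ℂ)
    simpa using h
  have hbd2 : ∀ᶠ p in 𝓝 ((0, 0) : ℂ × ℂ), ‖p.1‖ < 1 / (2 * B) ∧ p.2 ∈ ball (0 : ℂ) r :=
    eventually_of_polydisc (r := 1 / (2 * B)) (s := r) (by positivity) hr fun x hx y hy =>
      ⟨by simpa [mem_ball_zero_iff] using hx, hy⟩
  filter_upwards [hQ1, h3, hmap.eventually h3, hbd2] with p g1 g2 g3 g4
  rw [← g1, ← g3, ← g2]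
  have s1 := (hasSum_Sm (u := fun k => c1 f k p.2) hB (hbd p.2 g4.2) g4.1).1
  have s2 := (hasSum_Sm (u := fun k => c1 f k p.2) hB (hbd p.2 g4.2) (δ := ω * p.1)
    (by rw [norm_mul, hω, one_mul]; exact g4.1)).1
  simp only [Sm, Prod.swap]
  rw [← s2.tsum_sub s1]
  congr 1
  funext k
  rw [mul_pow]
  ring

/-- cancellation of a power of the first variable -/
theorem cancel_pow {f : ℂ × ℂ → ℂ} (hf : AnalyticAt ℂ f (0, 0)) (m : ℕ)
    (h : ∀ᶠ p in 𝓝 ((0, 0) : ℂ × ℂ), p.1 ^ m * f p = 0) : ∀ᶠ p in 𝓝 ((0, 0) : ℂ × ℂ), f p = 0 := by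
  filter_upwards [hf.eventually_analyticAt, eventually_eventually_nhds.2 h] with p h1 h2
  have h3 : Tendsto (fun x : ℂ => ((x, p.2) : ℂ × ℂ)) (𝓝[≠] p.1) (𝓝 p) := by
    have : Continuous fun x : ℂ => ((x, p.2) : ℂ × ℂ) := by fun_prop
    exact (this.tendsto p.1).mono_left nhdsWithin_le_nhds
  have h4 : Tendsto (fun x : ℂ => f (x, p.2)) (𝓝[≠] p.1) (𝓝 (f p)) :=
    h1.continuousAt.tendsto.comp h3
  have h5 : ∀ᶠ x in 𝓝[≠] p.1, f (x, p.2) = 0 := by
    have h6 : ∀ᶠ x in 𝓝[≠] p.1, x ≠ 0 := by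
      by_cases hp : p.1 = 0
      · rw [hp]
        exact self_mem_nhdsWithin
      · exact nhdsWithin_le_nhds (isOpen_ne.mem_nhds hp)
    filter_upwards [h3.eventually h2, h6] with x h7 h8
    exact (mul_eq_zero.1 h7).resolve_left (pow_ne_zero _ h8)
  have h6 : Tendsto (fun x : ℂ => f (x, p.2)) (𝓝[≠] p.1) (𝓝 0) :=
    tendsto_const_nhds.congr' (h5.mono fun x hx => hx.symm)
  exact tendsto_nhds_unique h4 h6

end Vale.Agent.P097.H357
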