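import Vale.Agent.P097.H357.L0a

/-! # P097 / ALG-L0, part 2: the linearised law at an end of exponent `0`. Owner: helper357. -/

set_option linter.all false

open Complex Metric Filter Topology Set

namespace Vale.Agent.P097.H357

open Vale.Agent.P097.NZ Vale.Agent.P097.Alg

variable {N : ℕ} {σ : ℂ} {R : ℂ → ℂ}

/-! ## restriction to the axis -/

theorem ev_axis {P : ℂ × ℂ → Prop} (h : ∀ᶠ p in 𝓝 ((0, 0) : ℂ × ℂ), P p) :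
    ∀ᶠ y in 𝓝 (0 : ℂ), P (0, y) := by
  have hc : Tendsto (fun y : ℂ => ((0, y) : ℂ × ℂ)) (𝓝 0) (𝓝 (0, 0)) := by
    have : Continuous (fun y : ℂ => ((0, y) : ℂ × ℂ)) := by fun_prop
    exact this.tendsto 0
  exact hc.eventually h

theorem rot_tendsto (ω : ℂ) :
    Tendsto (fun p : ℂ × ℂ => (ω * p.1, p.2)) (𝓝 (0, 0)) (𝓝 (0, 0)) := by
  have : Continuous (fun p : ℂ × ℂ => (ω * p.1, p.2)) := by fun_prop
  have h := this.tendsto ((0, 0) : ℂ × ℂ)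
  simpa using h

theorem rot_an (ω : ℂ) : AnalyticAt ℂ (fun p : ℂ × ℂ => (ω * p.1, p.2)) (0, 0) :=
  (analyticAt_const.mul analyticAt_fst).prod analyticAt_snd

theorem rot_zero (ω : ℂ) : ((ω * ((0, 0) : ℂ × ℂ).1, ((0, 0) : ℂ × ℂ).2) : ℂ × ℂ) = (0, 0) := by
  simp

theorem cmp {E F : Type*} [NormedAddCommGroup E] [NormedSpace ℂ E] [NormedAddCommGroup F]
    [NormedSpace ℂ F] {x : E} {q : F} (f : F → ℂ) (g : E → F) (hf : AnalyticAt ℂ f q)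
    (hg : AnalyticAt ℂ g x) (h : g x = q) : AnalyticAt ℂ (fun z => f (g z)) x :=
  hf.comp_of_eq hg h

/-- coordinates of `((ℂ × ℂ) × ℂ) × ℂ` -/
theorem z12 (z : ((ℂ × ℂ) × ℂ) × ℂ) : AnalyticAt ℂ (fun z : ((ℂ × ℂ) × ℂ) × ℂ => z.1.2) z :=
  analyticAt_snd.comp_of_eq analyticAt_fst rfl
theorem z11 (z : ((ℂ × ℂ) × ℂ) × ℂ) : AnalyticAt ℂ (fun z : ((ℂ × ℂ) × ℂ) × ℂ => z.1.1) z :=
  analyticAt_fst.comp_of_eq analyticAt_fst rfl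
theorem z111 (z : ((ℂ × ℂ) × ℂ) × ℂ) : AnalyticAt ℂ (fun z : ((ℂ × ℂ) × ℂ) × ℂ => z.1.1.1) z :=
  analyticAt_fst.comp_of_eq (z11 z) rfl
theorem z112 (z : ((ℂ × ℂ) × ℂ) × ℂ) : AnalyticAt ℂ (fun z : ((ℂ × ℂ) × ℂ) × ℂ => z.1.1.2) z :=
  analyticAt_snd.comp_of_eq (z11 z) rfl
theorem z212 (z : ((ℂ × ℂ) × ℂ) × ℂ) : AnalyticAt ℂ (fun z : ((ℂ × ℂ) × ℂ) × ℂ => z.2 * z.1.2) z :=
  analyticAt_snd.mul (z12 z)

/-- the integrand of the chord equation at the rotated point -/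
theorem ker_an {N : ℕ} {σ : ℂ} {R : ℂ → ℂ} (hR : AnalyticAt ℂ R 0) (a s : ℂ) :
    AnalyticAt ℂ (fun z : ((ℂ × ℂ) × ℂ) × ℂ =>
      z.1.2 * (ke N σ R (a * z.1.1.1, z.1.1.2) (z.2 * z.1.2) * (z.2 * z.1.2 - 1)))
      (((0, 0), 2), s) := by
  have g4 : AnalyticAt ℂ (fun z : ((ℂ × ℂ) × ℂ) × ℂ => ((a * z.1.1.1, z.1.1.2) : ℂ × ℂ))
      (((0, 0), 2), s) := (analyticAt_const.mul (z111 _)).prod (z112 _)
  have g5 := cmp (fun q : (ℂ × ℂ) × ℂ => ke N σ R q.1 q.2)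
    (fun z : ((ℂ × ℂ) × ℂ) × ℂ => (((a * z.1.1.1, z.1.1.2) : ℂ × ℂ), z.2 * z.1.2))
    (x := (((0, 0), 2), s)) (ke_an (N := N) (σ := σ) hR (s * 2)) (g4.prod (z212 _)) (by simp)
  exact (z12 _).mul (g5.mul ((z212 _).sub analyticAt_const))

/-! ## the root equation -/

/-- the chord equation -/
noncomputable def Psi (N : ℕ) (σ : ℂ) (R : ℂ → ℂ) (q : (ℂ × ℂ) × ℂ) : ℂ := Kint (ke N σ R q.1) q.2

theorem Psi_an (hR : AnalyticAt ℂ R 0) : AnalyticAt ℂ (Psi N σ R) ((0, 0), 2) := by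
  have h := analyticAt_unitInt (G := fun z : ((ℂ × ℂ) × ℂ) × ℂ =>
    z.1.2 * (ke N σ R (1 * z.1.1.1, z.1.1.2) (z.2 * z.1.2) * (z.2 * z.1.2 - 1)))
    (x₀ := ((0, 0), 2)) fun s _ => ker_an hR 1 s
  have h2 : Psi N σ R = fun q : (ℂ × ℂ) × ℂ => ∫ s in (0 : ℝ)..1,
      q.2 * (ke N σ R (1 * q.1.1, q.1.2) (s * q.2) * (s * q.2 - 1)) := by
    funext q
    simp only [Psi, Kint, one_mul]
  rw [h2]
  exact h

theorem ke0_axis (hN : 1 ≤ N) (y v : ℂ) : ke N 0 R (0, y) v = R 0 := by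
  simp [ke, snc_zero, zero_pow (show N ≠ 0 by omega)]

theorem Psi0_axis (hN : 1 ≤ N) (y : ℂ) {x : ℂ} :
    Psi N 0 R ((0, y), x) = R 0 * (x ^ 2 / 2 - x) := by
  have h : ke N 0 R (0, y) = fun _ => R 0 := funext fun v => ke0_axis hN y v
  rw [Psi]
  simp only [h]
  exact H65.Kint_fun_const _ _

theorem Psi0_deriv (hN : 1 ≤ N) (y : ℂ) : deriv (fun x => Psi N 0 R ((0, y), x)) 2 = R 0 := by
  have h : (fun x => Psi N 0 R ((0, y), x)) = fun x => R 0 * (x ^ 2 / 2 - x) :=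
    funext fun x => Psi0_axis hN y
  rw [h]
  have h3 : HasDerivAt (fun x : ℂ => x ^ 2) (2 * 2) 2 := by simpa using hasDerivAt_pow 2 (2 : ℂ)
  have h4 := ((h3.div_const 2).sub (hasDerivAt_id (2 : ℂ))).const_mul (R 0)
  have h5 : HasDerivAt (fun x : ℂ => R 0 * (x ^ 2 / 2 - x)) (R 0 * (2 * 2 / 2 - 1)) 2 := h4
  rw [h5.deriv]
  ring

theorem re0_axis (A : RootA) (hN : 1 ≤ N) (hR : AnalyticAt ℂ R 0) (h0 : R 0 ≠ 0) (y : ℂ) :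
    re N 0 R (0, y) = 2 := by
  have h1 : re N 0 R (0, y) = re N 0 R (0, 0) := by
    refine root_congr (c := 1) one_ne_zero fun v _ => ?_
    rw [ke0_axis hN, ke0_axis hN, one_mul]
  rw [h1]
  exact re_axis A hR h0

theorem re_spec (A : RootA) (hR : AnalyticAt ℂ R 0) (h0 : R 0 ≠ 0) :
    ∀ᶠ p in 𝓝 ((0, 0) : ℂ × ℂ), Psi N σ R (p, re N σ R p) = 0 := by
  have := (A (ke N σ R) (0, 0) (R 0) h0 (fun v _ => ke_an hR v) (fun v _ => ke_axis v)).2.2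
  filter_upwards [this] with p hp
  exact hp.2.1

/-- the derivative of the kernel along the sheets -/
noncomputable def Mt (N m : ℕ) (S : ℂ → ℂ) (q : (ℂ × ℂ) × ℂ) : ℂ :=
  ∫ s in (0 : ℝ)..1, q.2 * (((1 + q.1.2 * (s * q.2)) ^ (1 / (N : ℂ))) ^ m *
    S (q.1.1 * (1 + q.1.2 * (s * q.2)) ^ (1 / (N : ℂ))) *
      snc (q.1.2 * q.1.1 ^ N * (s * q.2 - 1)) * (s * q.2 - 1))

section

variable {m : ℕ} {S : ℂ → ℂ}

theorem aux_an (N : ℕ) (s : ℂ) : AnalyticAt ℂ (fun z : ((ℂ × ℂ) × ℂ) × ℂ =>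
    (1 + z.1.1.2 * (z.2 * z.1.2)) ^ (1 / (N : ℂ))) (((0, 0), 2), s) :=
  (analyticAt_const.add ((z112 _).mul (z212 _))).cpow analyticAt_const (by simp)

theorem aux_an2 (N : ℕ) (s : ℂ) : AnalyticAt ℂ (fun z : ((ℂ × ℂ) × ℂ) × ℂ =>
    z.1.1.1 * (1 + z.1.1.2 * (z.2 * z.1.2)) ^ (1 / (N : ℂ))) (((0, 0), 2), s) :=
  (z111 _).mul (aux_an N s)

theorem Mt_an (hS : AnalyticAt ℂ S 0) : AnalyticAt ℂ (Mt N m S) ((0, 0), 2) := by
  refine analyticAt_unitInt (G := fun z : ((ℂ × ℂ) × ℂ) × ℂ =>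
    z.1.2 * (((1 + z.1.1.2 * (z.2 * z.1.2)) ^ (1 / (N : ℂ))) ^ m *
    S (z.1.1.1 * (1 + z.1.1.2 * (z.2 * z.1.2)) ^ (1 / (N : ℂ))) *
      snc (z.1.1.2 * z.1.1.1 ^ N * (z.2 * z.1.2 - 1)) * (z.2 * z.1.2 - 1))) fun s _ => ?_
  have h5 := cmp S _ (x := (((0, 0), 2), s)) hS (aux_an2 N s) (by simp)
  have h6 := cmp snc (fun z : ((ℂ × ℂ) × ℂ) × ℂ => z.1.1.2 * z.1.1.1 ^ N * (z.2 * z.1.2 - 1))
    (x := (((0, 0), 2), s)) (snc_an _)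
    (((z112 _).mul ((z111 _).pow N)).mul ((z212 _).sub analyticAt_const)) rfl
  exact (z12 _).mul (((((aux_an N s).pow m).mul h5).mul h6).mul ((z212 _).sub analyticAt_const))

theorem Mt_axis (hN : 1 ≤ N) {y : ℂ} (hy : ‖y‖ < 1 / 2) :
    Mt N m S ((0, y), 2) = S 0 * ∫ v in (0 : ℝ)..2, (1 + y * v) ^ ((m : ℂ) / N) * (v - 1) := by
  have h1 : Mt N m S ((0, y), 2) = ∫ s in (0 : ℝ)..1,
      2 * (S 0 * ((1 + y * ((2 * s : ℝ) : ℂ)) ^ ((m : ℂ) / N) * (((2 * s : ℝ) : ℂ) - 1))) := by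
    unfold Mt
    refine intervalIntegral.integral_congr fun s hs => ?_
    simp only [zero_mul, zero_pow (show N ≠ 0 by omega), mul_zero, snc_zero, mul_one]
    have h2 : ((1 + y * ((s : ℂ) * 2)) ^ (1 / (N : ℂ))) ^ m =
        (1 + y * ((2 * s : ℝ) : ℂ)) ^ ((m : ℂ) / N) := by
      rw [← Complex.cpow_nat_mul]
      push_cast
      rw [mul_comm (s : ℂ) 2]
      congr 1
      ring
    rw [h2]
    push_cast
    ring
  rw [h1, intervalIntegral.integral_const_mul, intervalIntegral.integral_const_mul]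
  have h3 := intervalIntegral.integral_comp_mul_left (a := (0 : ℝ)) (b := 1)
    (fun v : ℝ => (1 + y * (v : ℂ)) ^ ((m : ℂ) / N) * ((v : ℂ) - 1)) (c := 2) (by norm_num)
  rw [h3]
  simp only [mul_zero, mul_one]
  rw [Complex.real_smul]
  push_cast
  ring

theorem kint_sheet {ω : ℂ} (hω : ω ^ N = 1) (hR : AnalyticAt ℂ R 0)
    (hS : AnalyticAt ℂ S 0) (hRS : ∀ᶠ ξ in 𝓝 (0 : ℂ), R (ω * ξ) - R ξ = ξ ^ m * S ξ) :
    ∀ᶠ q in 𝓝 (((0, 0), 2) : (ℂ × ℂ) × ℂ),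
      Psi N 0 R ((ω * q.1.1, q.1.2), q.2) - Psi N 0 R q = q.1.1 ^ m * Mt N m S q := by
  -- pointwise facts on the segment
  have hc1 : ∀ s ∈ Icc (0 : ℝ) 1, ∀ᶠ z in 𝓝 (((((0, 0), 2) : (ℂ × ℂ) × ℂ), s) : ((ℂ × ℂ) × ℂ) × ℝ),
      (R (ω * (z.1.1.1 * (1 + z.1.1.2 * (z.2 * z.1.2)) ^ (1 / (N : ℂ)))) -
        R (z.1.1.1 * (1 + z.1.1.2 * (z.2 * z.1.2)) ^ (1 / (N : ℂ))) =
        (z.1.1.1 * (1 + z.1.1.2 * (z.2 * z.1.2)) ^ (1 / (N : ℂ))) ^ m *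
          S (z.1.1.1 * (1 + z.1.1.2 * (z.2 * z.1.2)) ^ (1 / (N : ℂ)))) ∧
      ContinuousAt (fun s : ℝ => z.1.2 * (ke N 0 R z.1.1 (s * z.1.2) * (s * z.1.2 - 1))) z.2 ∧
      ContinuousAt (fun s : ℝ => z.1.2 * (ke N 0 R (ω * z.1.1.1, z.1.1.2) (s * z.1.2) *
        (s * z.1.2 - 1))) z.2 := by
    intro s _
    have hcs : Tendsto (fun z : ((ℂ × ℂ) × ℂ) × ℝ => ((z.1, (z.2 : ℂ)) : ((ℂ × ℂ) × ℂ) × ℂ))
        (𝓝 (((0, 0), 2), s)) (𝓝 (((0, 0), 2), (s : ℂ))) := by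
      have : Continuous (fun z : ((ℂ × ℂ) × ℂ) × ℝ => ((z.1, (z.2 : ℂ)) : ((ℂ × ℂ) × ℂ) × ℂ)) := by
        fun_prop
      exact this.tendsto _
    have h1 : Tendsto (fun z : ((ℂ × ℂ) × ℂ) × ℂ =>
        z.1.1.1 * (1 + z.1.1.2 * (z.2 * z.1.2)) ^ (1 / (N : ℂ))) (𝓝 (((0, 0), 2), (s : ℂ)))
        (𝓝 0) := by
      have h3 := (aux_an2 N (s : ℂ)).continuousAt.tendsto
      have h4 : (0 : ℂ) * (1 + 0 * ((s : ℂ) * 2)) ^ (1 / (N : ℂ)) = 0 := zero_mul _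
      exact h3.trans (by
        show 𝓝 ((0 : ℂ) * (1 + 0 * ((s : ℂ) * 2)) ^ (1 / (N : ℂ))) ≤ 𝓝 0
        rw [h4])
    have hker : ∀ (a : ℂ), ∀ᶠ z in 𝓝 ((((0, 0), 2), (s : ℂ)) : ((ℂ × ℂ) × ℂ) × ℂ),
        AnalyticAt ℂ (fun z : ((ℂ × ℂ) × ℂ) × ℂ =>
          z.1.2 * (ke N 0 R (a * z.1.1.1, z.1.1.2) (z.2 * z.1.2) * (z.2 * z.1.2 - 1))) z :=
      fun a => (ker_an hR a s).eventually_analyticAt
    have hsl : ∀ (a : ℂ) (z : ((ℂ × ℂ) × ℂ) × ℝ), AnalyticAt ℂ (fun z : ((ℂ × ℂ) × ℂ) × ℂ =>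
          z.1.2 * (ke N 0 R (a * z.1.1.1, z.1.1.2) (z.2 * z.1.2) * (z.2 * z.1.2 - 1)))
          (z.1, (z.2 : ℂ)) → ContinuousAt (fun s : ℝ => z.1.2 *
            (ke N 0 R (a * z.1.1.1, z.1.1.2) (s * z.1.2) * (s * z.1.2 - 1))) z.2 := by
      intro a z hz
      have g1 : ContinuousAt (fun s : ℝ => ((z.1, (s : ℂ)) : ((ℂ × ℂ) × ℂ) × ℂ)) z.2 := by
        fun_prop
      exact ContinuousAt.comp (f := fun s : ℝ => ((z.1, (s : ℂ)) : ((ℂ × ℂ) × ℂ) × ℂ))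
        hz.continuousAt g1
    filter_upwards [hcs.eventually (h1.eventually hRS), hcs.eventually (hker 1),
      hcs.eventually (hker ω)] with z g1 g2 g3
    refine ⟨g1, ?_, hsl ω z g3⟩
    have g4 := hsl 1 z g2
    have g5 : ((1 * z.1.1.1, z.1.1.2) : ℂ × ℂ) = z.1.1 := by
      rw [one_mul]
    rw [g5] at g4
    exact g4
  have h2 := isCompact_Icc.eventually_forall_of_forall_eventually (X := (ℂ × ℂ) × ℂ)
    (x₀ := ((0, 0), 2)) (K := Icc (0 : ℝ) 1)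
    (P := fun q s => (R (ω * (q.1.1 * (1 + q.1.2 * (s * q.2)) ^ (1 / (N : ℂ)))) -
        R (q.1.1 * (1 + q.1.2 * (s * q.2)) ^ (1 / (N : ℂ))) =
        (q.1.1 * (1 + q.1.2 * (s * q.2)) ^ (1 / (N : ℂ))) ^ m *
          S (q.1.1 * (1 + q.1.2 * (s * q.2)) ^ (1 / (N : ℂ)))) ∧
      ContinuousAt (fun s : ℝ => q.2 * (ke N 0 R q.1 (s * q.2) * (s * q.2 - 1))) s ∧
      ContinuousAt (fun s : ℝ => q.2 * (ke N 0 R (ω * q.1.1, q.1.2) (s * q.2) *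
        (s * q.2 - 1))) s) hc1
  filter_upwards [h2] with q hq
  have i1 : IntervalIntegrable (fun s : ℝ => q.2 * (ke N 0 R q.1 (s * q.2) * (s * q.2 - 1)))
      MeasureTheory.volume 0 1 := by
    apply ContinuousOn.intervalIntegrable
    intro s hs
    rw [uIcc_of_le zero_le_one] at hs
    exact (hq s hs).2.1.continuousWithinAt
  have i2 : IntervalIntegrable (fun s : ℝ => q.2 * (ke N 0 R (ω * q.1.1, q.1.2) (s * q.2) *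
      (s * q.2 - 1))) MeasureTheory.volume 0 1 := by
    apply ContinuousOn.intervalIntegrable
    intro s hs
    rw [uIcc_of_le zero_le_one] at hs
    exact (hq s hs).2.2.continuousWithinAt
  simp only [Psi, Kint, Mt]
  rw [← intervalIntegral.integral_sub i2 i1, ← intervalIntegral.integral_const_mul]
  refine intervalIntegral.integral_congr fun s hs => ?_
  rw [uIcc_of_le zero_le_one] at hs
  have g1 := (hq s hs).1
  simp only [ke, cpow_zero, one_mul]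
  have g2 : (ω * q.1.1) ^ N = q.1.1 ^ N := by rw [mul_pow, hω, one_mul]
  rw [g2, mul_assoc ω q.1.1]
  rw [mul_pow] at g1
  linear_combination (q.2 * snc (q.1.2 * q.1.1 ^ N * (s * q.2 - 1)) * (s * q.2 - 1)) * g1

end

end Vale.Agent.P097.H357
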