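import Vale.Agent.P097.H357.L0b

/-! # P097 / ALG-L0, part 3: the linearised law. Owner: helper357. -/

set_option linter.all false

open Complex Metric Filter Topology Set

namespace Vale.Agent.P097.H357

open Vale.Agent.P097.NZ Vale.Agent.P097.Alg

variable {N : ℕ} {R : ℂ → ℂ} {Lam : ℂ × ℂ → ℂ} {m : ℕ} {S : ℂ → ℂ}

/-- the law as a function of the root -/
noncomputable def FF (N : ℕ) (Lam : ℂ × ℂ → ℂ) (q : (ℂ × ℂ) × ℂ) : ℂ :=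
  (1 + q.1.2 * q.2) ^ 3 *
    Lam (q.1.1 * (1 + q.1.2 * q.2) ^ (1 / (N : ℂ)), q.1.2 * (q.2 - 1) / (1 + q.1.2 * q.2))

theorem q11 (q : (ℂ × ℂ) × ℂ) : AnalyticAt ℂ (fun q : (ℂ × ℂ) × ℂ => q.1.1) q :=
  analyticAt_fst.comp_of_eq analyticAt_fst rfl
theorem q12 (q : (ℂ × ℂ) × ℂ) : AnalyticAt ℂ (fun q : (ℂ × ℂ) × ℂ => q.1.2) q :=
  analyticAt_snd.comp_of_eq analyticAt_fst rfl

theorem one_add_an (x : ℂ) : AnalyticAt ℂ (fun q : (ℂ × ℂ) × ℂ => 1 + q.1.2 * q.2) ((0, 0), x) :=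
  analyticAt_const.add ((q12 _).mul analyticAt_snd)

theorem sh_an (N : ℕ) (x : ℂ) : AnalyticAt ℂ (fun q : (ℂ × ℂ) × ℂ =>
    ((q.1.1 * (1 + q.1.2 * q.2) ^ (1 / (N : ℂ)), q.1.2 * (q.2 - 1) / (1 + q.1.2 * q.2)) : ℂ × ℂ))
    ((0, 0), x) := by
  refine AnalyticAt.prod ((q11 _).mul ((one_add_an x).cpow analyticAt_const (by simp))) ?_
  exact ((q12 _).mul (analyticAt_snd.sub analyticAt_const)).div (one_add_an x) (by simp)

theorem FF_an (hL : AnalyticAt ℂ Lam (0, 0)) : AnalyticAt ℂ (FF N Lam) ((0, 0), 2) := by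
  have h1 := cmp Lam _ (x := ((0, 0), 2)) hL (sh_an N 2) (by simp)
  exact ((one_add_an 2).pow 3).mul h1

/-- composition with the sheet shift -/
theorem QS_an {Q : ℂ × ℂ → ℂ} (hQ : AnalyticAt ℂ Q (0, 0)) : AnalyticAt ℂ (fun q : (ℂ × ℂ) × ℂ =>
    (1 + q.1.2 * q.2) ^ 3 * (((1 + q.1.2 * q.2) ^ (1 / (N : ℂ))) ^ m *
      Q (q.1.1 * (1 + q.1.2 * q.2) ^ (1 / (N : ℂ)), q.1.2 * (q.2 - 1) / (1 + q.1.2 * q.2))))
    ((0, 0), 2) := by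
  have h1 := cmp Q _ (x := ((0, 0), 2)) hQ (sh_an N 2) (by simp)
  exact ((one_add_an 2).pow 3).mul ((((one_add_an 2).cpow analyticAt_const (by simp)).pow m).mul h1)

theorem FF_sheet {ω : ℂ} {Q : ℂ × ℂ → ℂ}
    (hQ : ∀ᶠ p in 𝓝 ((0, 0) : ℂ × ℂ), Lam (ω * p.1, p.2) - Lam p = p.1 ^ m * Q p) :
    ∀ᶠ q in 𝓝 (((0, 0), 2) : (ℂ × ℂ) × ℂ),
      FF N Lam ((ω * q.1.1, q.1.2), q.2) - FF N Lam q = q.1.1 ^ m *
        ((1 + q.1.2 * q.2) ^ 3 * (((1 + q.1.2 * q.2) ^ (1 / (N : ℂ))) ^ m *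
      Q (q.1.1 * (1 + q.1.2 * q.2) ^ (1 / (N : ℂ)),
        q.1.2 * (q.2 - 1) / (1 + q.1.2 * q.2)))) := by
  have h1 : Tendsto (fun q : (ℂ × ℂ) × ℂ => ((q.1.1 * (1 + q.1.2 * q.2) ^ (1 / (N : ℂ)),
      q.1.2 * (q.2 - 1) / (1 + q.1.2 * q.2)) : ℂ × ℂ)) (𝓝 ((0, 0), 2)) (𝓝 (0, 0)) := by
    refine (sh_an N 2).continuousAt.tendsto.trans ?_
    show 𝓝 (((0 : ℂ) * (1 + 0 * 2) ^ (1 / (N : ℂ)), (0 : ℂ) * (2 - 1) / (1 + 0 * 2))) ≤ 𝓝 (0, 0)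
    rw [zero_mul, zero_mul, zero_div]
  filter_upwards [h1.eventually hQ] with q hq
  simp only [FF]
  rw [mul_assoc ω q.1.1]
  rw [mul_pow] at hq
  linear_combination (1 + q.1.2 * q.2) ^ 3 * hq

theorem FF_axis_deriv (hN : 1 ≤ N) {c : ℂ}
    (h00 : ∀ᶠ y in 𝓝 (0 : ℂ), Lam (0, y) = c * y ^ 3) :
    ∀ᶠ y in 𝓝 (0 : ℂ), deriv (fun x => FF N Lam ((0, y), x)) 2 = 3 * c * y ^ 3 := by
  have h1 : Tendsto (fun q : ℂ × ℂ => q.1 * (q.2 - 1) / (1 + q.1 * q.2)) (𝓝 (0, 2)) (𝓝 0) := by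
    have h2 : ContinuousAt (fun q : ℂ × ℂ => q.1 * (q.2 - 1) / (1 + q.1 * q.2)) (0, 2) :=
      ContinuousAt.div (by fun_prop) (by fun_prop) (by simp)
    refine h2.tendsto.trans ?_
    simp
  have h3 : ∀ᶠ q in 𝓝 ((0, 2) : ℂ × ℂ), (1 + q.1 * q.2 ≠ 0) ∧
      Lam (0, q.1 * (q.2 - 1) / (1 + q.1 * q.2)) = c * (q.1 * (q.2 - 1) / (1 + q.1 * q.2)) ^ 3 := by
    refine Filter.Eventually.and ?_ (h1.eventually h00)
    have h4 : ContinuousAt (fun q : ℂ × ℂ => 1 + q.1 * q.2) (0, 2) := by fun_prop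
    exact h4.eventually_ne (by simp)
  have h5 : Tendsto (fun y : ℂ => ((y, 2) : ℂ × ℂ)) (𝓝 0) (𝓝 (0, 2)) := by
    have : Continuous (fun y : ℂ => ((y, 2) : ℂ × ℂ)) := by fun_prop
    exact this.tendsto 0
  filter_upwards [h5.eventually (eventually_eventually_nhds.2 h3)] with y hy
  have h6 : Tendsto (fun x : ℂ => ((y, x) : ℂ × ℂ)) (𝓝 2) (𝓝 (y, 2)) := by
    have : Continuous (fun x : ℂ => ((y, x) : ℂ × ℂ)) := by fun_prop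
    exact this.tendsto 2
  have h7 : (fun x => FF N Lam ((0, y), x)) =ᶠ[𝓝 2] fun x => c * y ^ 3 * (x - 1) ^ 3 := by
    filter_upwards [h6.eventually hy] with x hx
    simp only [FF, zero_mul]
    rw [hx.2]
    field_simp [hx.1]
  rw [h7.deriv_eq]
  have h8 : HasDerivAt (fun x : ℂ => c * y ^ 3 * (x - 1) ^ 3)
      (c * y ^ 3 * ((3 : ℕ) * (2 - 1) ^ (3 - 1) * 1)) 2 :=
    (((hasDerivAt_id (2 : ℂ)).sub_const 1).pow 3).const_mul _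
  rw [h8.deriv]
  push_cast
  ring

/-- the linearised law -/
theorem lin (A : RootA) (hN : 1 ≤ N) (hR : AnalyticAt ℂ R 0) (h0 : R 0 ≠ 0)
    (hL : AnalyticAt ℂ Lam (0, 0))
    (law : ∀ᶠ p in 𝓝 ((0, 0) : ℂ × ℂ), rr N 0 R p ^ 3 * Lam (Te N 0 R p) = Lam p)
    (h00 : ∀ᶠ y in 𝓝 (0 : ℂ), Lam (0, y) = R 0 * (2 / 3) * y ^ 3) {ω : ℂ} (hω : ω ^ N = 1)
    (hω1 : ‖ω‖ = 1) {Q : ℂ × ℂ → ℂ} (hQ : AnalyticAt ℂ Q (0, 0))
    (hLQ : ∀ᶠ p in 𝓝 ((0, 0) : ℂ × ℂ), Lam (ω * p.1, p.2) - Lam p = p.1 ^ m * Q p)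
    (hS : AnalyticAt ℂ S 0) (hRS : ∀ᶠ ξ in 𝓝 (0 : ℂ), R (ω * ξ) - R ξ = ξ ^ m * S ξ) :
    ∀ᶠ y in 𝓝 (0 : ℂ), Q (0, y) - (1 + 2 * y) ^ 3 * (((1 + 2 * y) ^ (1 / (N : ℂ))) ^ m *
      Q (0, y / (1 + 2 * y))) = -(2 * y ^ 3 * S 0 *
        ∫ v in (0 : ℝ)..2, (1 + y * v) ^ ((m : ℂ) / N) * (v - 1)) := by
  set X : ℂ × ℂ → ℂ := re N 0 R with hX
  set X' : ℂ × ℂ → ℂ := fun p => re N 0 R (ω * p.1, p.2) with hX'
  have hXan : AnalyticAt ℂ X (0, 0) := re_an A hR h0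
  have hX'an : AnalyticAt ℂ X' (0, 0) :=
    cmp (re N 0 R) (fun p : ℂ × ℂ => (ω * p.1, p.2)) (x := (0, 0)) (re_an A hR h0) (rot_an ω)
      (by simp)
  have hX0 : ∀ y, X (0, y) = 2 := re0_axis A hN hR h0
  have hX'0 : ∀ y, X' (0, y) = 2 := by
    intro y
    simp only [hX', mul_zero]
    exact re0_axis A hN hR h0 y
  -- the chord equation
  obtain ⟨AP, hAPan, hAP, hAP0⟩ := quot_x (Psi_an (N := N) (σ := 0) hR)
  obtain ⟨AF, hAFan, hAF, hAF0⟩ := quot_x (FF_an (N := N) hL)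
  have hMt := kint_sheet (N := N) (m := m) hω hR hS hRS
  have hMtan := Mt_an (N := N) (m := m) hS
  have t1 : Tendsto (fun p : ℂ × ℂ => ((p, X p) : (ℂ × ℂ) × ℂ)) (𝓝 (0, 0)) (𝓝 ((0, 0), 2)) := by
    have h := (analyticAt_id.prod hXan).continuousAt.tendsto
    have h2 : X (0, 0) = 2 := hX0 0
    simp only [id, h2] at h
    exact h
  have t2 : Tendsto (fun p : ℂ × ℂ => ((p, X' p) : (ℂ × ℂ) × ℂ)) (𝓝 (0, 0)) (𝓝 ((0, 0), 2)) := by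
    have h := (analyticAt_id.prod hX'an).continuousAt.tendsto
    have h2 : X' (0, 0) = 2 := hX'0 0
    simp only [id, h2] at h
    exact h
  have a3 : AnalyticAt ℂ (fun p : ℂ × ℂ => (((ω * p.1, p.2), (X p, X' p)) : (ℂ × ℂ) × (ℂ × ℂ)))
      (0, 0) := (rot_an ω).prod (hXan.prod hX'an)
  have e3 : (((ω * ((0, 0) : ℂ × ℂ).1, ((0, 0) : ℂ × ℂ).2), (X (0, 0), X' (0, 0))) :
      (ℂ × ℂ) × (ℂ × ℂ)) = ((0, 0), (2, 2)) := by
    rw [hX0 0, hX'0 0, rot_zero]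
  have t3 : Tendsto (fun p : ℂ × ℂ => (((ω * p.1, p.2), (X p, X' p)) : (ℂ × ℂ) × (ℂ × ℂ)))
      (𝓝 (0, 0)) (𝓝 ((0, 0), (2, 2))) := by
    have h := a3.continuousAt.tendsto
    rw [e3] at h
    exact h
  have a4 : AnalyticAt ℂ (fun p : ℂ × ℂ => ((p, (X p, X' p)) : (ℂ × ℂ) × (ℂ × ℂ)))
      (0, 0) := analyticAt_id.prod (hXan.prod hX'an)
  have e4 : (((0, 0), (X (0, 0), X' (0, 0))) :
      (ℂ × ℂ) × (ℂ × ℂ)) = ((0, 0), (2, 2)) := by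
    rw [hX0 0, hX'0 0]
  have t4 : Tendsto (fun p : ℂ × ℂ => ((p, (X p, X' p)) : (ℂ × ℂ) × (ℂ × ℂ)))
      (𝓝 (0, 0)) (𝓝 ((0, 0), (2, 2))) := by
    have h := a4.continuousAt.tendsto
    rw [e4] at h
    exact h
  set aP : ℂ × ℂ → ℂ := fun p => AP ((ω * p.1, p.2), (X p, X' p)) with haP
  set aF : ℂ × ℂ → ℂ := fun p => AF (p, (X p, X' p)) with haF
  set M : ℂ × ℂ → ℂ := fun p => Mt N m S (p, X p) with hM
  set QQ : ℂ × ℂ → ℂ := fun p => (1 + p.2 * X' p) ^ 3 *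
    (((1 + p.2 * X' p) ^ (1 / (N : ℂ))) ^ m * Q (p.1 * (1 + p.2 * X' p) ^ (1 / (N : ℂ)),
      p.2 * (X' p - 1) / (1 + p.2 * X' p))) with hQQ
  have haPan : AnalyticAt ℂ aP (0, 0) := cmp AP _ (x := (0, 0)) hAPan a3 e3
  have haFan : AnalyticAt ℂ aF (0, 0) := cmp AF _ (x := (0, 0)) hAFan a4 e4
  have hMan : AnalyticAt ℂ M (0, 0) :=
    cmp (Mt N m S) (fun p : ℂ × ℂ => (p, X p)) (x := (0, 0)) hMtan (analyticAt_id.prod hXan)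
      (by rw [hX0 0])
  have hQQan : AnalyticAt ℂ QQ (0, 0) :=
    cmp _ (fun p : ℂ × ℂ => (p, X' p)) (x := (0, 0)) (QS_an (N := N) (m := m) hQ)
      (analyticAt_id.prod hX'an) (by rw [hX'0 0])
  -- value of `aP` on the axis
  have haP0 : ∀ᶠ y in 𝓝 (0 : ℂ), aP (0, y) = R 0 := by
    filter_upwards [ev_axis hAP0] with y hy
    simp only [haP, mul_zero, hX0, hX'0]
    rw [hy]
    exact Psi0_deriv hN y
  have haF0 : ∀ᶠ y in 𝓝 (0 : ℂ), aF (0, y) = 2 * R 0 * y ^ 3 := by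
    filter_upwards [ev_axis hAF0, FF_axis_deriv (N := N) hN h00] with y hy hy2
    simp only [haF, hX0, hX'0]
    rw [hy, hy2]
    ring
  have haPne : ∀ᶠ p in 𝓝 ((0, 0) : ℂ × ℂ), aP p ≠ 0 := by
    refine haPan.continuousAt.eventually_ne ?_
    rw [haP0.self_of_nhds]
    exact h0
  -- difference of the roots
  have hdiff : ∀ᶠ p in 𝓝 ((0, 0) : ℂ × ℂ), (X' p - X p) * aP p = -(p.1 ^ m * M p) := by
    have r1 := re_spec (N := N) (σ := 0) A hR h0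
    have r2 := (rot_tendsto ω).eventually r1
    filter_upwards [r1, r2, t3.eventually hAP, t1.eventually hMt] with p g1 g2 g3 g4
    have g5 : Psi N 0 R ((ω * p.1, p.2), X' p) = 0 := g2
    have g6 : Psi N 0 R (p, X p) = 0 := g1
    rw [g5] at g3
    rw [g6] at g4
    simp only [haP, hM]
    linear_combination -g3 - g4
  -- the law
  have hlaw : ∀ᶠ p in 𝓝 ((0, 0) : ℂ × ℂ), FF N Lam (p, X p) = Lam p := by
    filter_upwards [law] with p hp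
    rw [← hp]
    rfl
  have hlaw' := (rot_tendsto ω).eventually hlaw
  have hmain : ∀ᶠ p in 𝓝 ((0, 0) : ℂ × ℂ),
      p.1 ^ m * (Q p * aP p - QQ p * aP p + M p * aF p) = 0 := by
    filter_upwards [hdiff, hlaw, hlaw', hLQ, t4.eventually hAF,
      t2.eventually (FF_sheet (N := N) hLQ)] with p g1 g2 g3 g4 g5 g6
    have g7 : FF N Lam ((ω * p.1, p.2), X' p) = Lam (ω * p.1, p.2) := g3
    rw [g7] at g6
    rw [g2] at g5
    simp only [hQQ, haF] at *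
    linear_combination aP p * g6 - aP p * g4 + aP p * g5 + AF (p, X p, X' p) * g1
  have hfin := ev_axis (cancel_pow
    (((hQ.mul haPan).sub (hQQan.mul haPan)).add (hMan.mul haFan)) m hmain)
  have hsmall : ∀ᶠ y in 𝓝 (0 : ℂ), ‖y‖ < 1 / 2 := by
    have := ball_mem_nhds (0 : ℂ) (show (0 : ℝ) < 1 / 2 by norm_num)
    filter_upwards [this] with y hy
    simpa [mem_ball_zero_iff] using hy
  filter_upwards [hfin, haP0, haF0, hsmall] with y g1 g2 g3 g4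
  have g5 : M (0, y) = S 0 * ∫ v in (0 : ℝ)..2, (1 + y * v) ^ ((m : ℂ) / N) * (v - 1) := by
    simp only [hM, hX0]
    exact Mt_axis hN g4
  have g6 : QQ (0, y) = (1 + 2 * y) ^ 3 * (((1 + 2 * y) ^ (1 / (N : ℂ))) ^ m *
      Q (0, y / (1 + 2 * y))) := by
    simp only [hQQ, hX'0, zero_mul]
    rw [mul_comm y 2, show y * (2 - 1) = y by ring]
  simp only [Pi.add_apply, Pi.sub_apply, Pi.mul_apply] at g1
  rw [g2, g3, g5, g6] at g1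
  have h1 : R 0 * (Q (0, y) - (1 + 2 * y) ^ 3 * (((1 + 2 * y) ^ (1 / (N : ℂ))) ^ m *
      Q (0, y / (1 + 2 * y))) + 2 * y ^ 3 * S 0 *
        ∫ v in (0 : ℝ)..2, (1 + y * v) ^ ((m : ℂ) / N) * (v - 1)) = 0 := by
    linear_combination g1
  have h2 := (mul_eq_zero.1 h1).resolve_left h0
  linear_combination h2

end Vale.Agent.P097.H357
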