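import Vale.Agent.P097.H357.L0
import Vale.Agent.P097.H787.K0
import Vale.Agent.P097.H222.LawH
import Vale.Agent.P097.H65.NZA

/-! # P097 / ALG-L0, final statement. -/

namespace Vale.Agent.P097.H357

open Vale.Agent.P097.Alg

/-- ALG-L0 -/
theorem pl0_final : PL0 := pl0 H65.rootA (Alg.lawH0 H65.rootA) H787.k0

end Vale.Agent.P097.H357
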